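import Vale.Agent.P331.H379.JLabel
import Vale.Agent.P331.H316.Rows

/-!
# Row JST: the exchange of the test set and of the removed pool
-/

set_option autoImplicit false
set_option linter.unusedSectionVars false
set_option linter.unusedVariables false

namespace Vale.Agent.P331.H379

open Finset Vale.Agent.P331.H489 Vale.Agent.P331.H316
open scoped Classical

section

variable {E : Type} [Fintype E]

/-- the labelling with four given sets -/
noncomputable def mk5 (V H R I : Finset E) : E → L5 :=
  fun e => if e ∈ V then .v else if e ∈ H then .h else if e ∈ R then .r else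
    if e ∈ I then .i else .o

theorem mem_cls {L : Type} {κ : E → L} {l : L} {e : E} : e ∈ cls κ l ↔ κ e = l := by
  simp [cls]

theorem mk5_cls (κ : E → L5) : mk5 (cls κ .v) (cls κ .h) (cls κ .r) (cls κ .i) = κ := by
  funext e
  simp only [mk5, mem_cls]
  rcases κ e with _ | _ | _ | _ | _ <;> simp

theorem lab_eq_cls (l : L5) (κ : E → L5) : lab l κ = cls κ l := by
  ext e
  rw [mem_lab, mem_cls]

theorem w5'_nonneg {p h r s : ℝ} (hp : 0 ≤ p) (hh : 0 ≤ h) (hr : 0 ≤ r) (hs : 0 ≤ s)
    (hsum : p + h + r + s ≤ 1) (l : L5) : 0 ≤ w5' p h r s l := by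
  rcases l with _ | _ | _ | _ | _ <;> simp only [w5'] <;> linarith

end

/-- **Row JST.** -/
theorem rowJST : RowJST := by
  intro E _ p h r s hp hh hr hs hsum Fam hFam K Ast hK
  obtain ⟨U, h1, -, h2⟩ := jstar_label (E := E) (L := L5) .v .h (by decide)
    (fun _ => w5' p h r s) (fun _ l => w5'_nonneg hp.le hh hr hs hsum l) (h / p)
    (div_nonneg hh hp.le)
    (fun _ => by simp only [w5']; rw [div_mul_cancel₀ _ hp.ne'])
    (fun κ A => Fam (cls κ .r) (cls κ .i) A)
    (fun κ A B hAB hA => hFam _ _ A B hAB hA)
    (by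
      intro κ κ' hs A hA
      have key : ∀ l : L5, l ≠ .v → l ≠ .h → cls κ l = cls κ' l := by
        intro l hv hh
        ext e
        rw [mem_cls, mem_cls]
        rcases hs e with h0 | ⟨h0, h1⟩
        · rw [h0]
        · constructor
          · intro h2
            rw [h2] at h0
            rcases h0 with h0 | h0
            · exact absurd h0 hv
            · exact absurd h0 hh
          · intro h2
            rw [h2] at h1
            rcases h1 with h1 | h1
            · exact absurd h1 hv
            · exact absurd h1 hh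
      rwa [key .r (by decide) (by decide), key .i (by decide) (by decide)] at hA)
    (fun κ => Ast (cls κ .v) (cls κ .h) (cls κ .r) (cls κ .i))
    (fun κ => K (cls κ .v) (cls κ .h) (cls κ .r) (cls κ .i))
    (by
      intro κ hE
      obtain ⟨h1, h2⟩ := hK _ _ _ _ hE
      exact ⟨fun e he => mem_cls.1 (h1 he), h2⟩)
  have hkey : ∀ κ : E → L5, Ast (cls κ .v) (cls κ .h) (cls κ .r) (cls κ .i) →
      ∀ e ∈ U κ, κ e = .v := fun κ hE e he => mem_cls.1 ((hK _ _ _ _ hE).1 ((h1 κ hE).1 he))
  refine ⟨fun V H R I => if cls (mk5 V H R I) .v = V ∧ cls (mk5 V H R I) .h = H ∧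
    cls (mk5 V H R I) .r = R ∧ cls (mk5 V H R I) .i = I then U (mk5 V H R I) else K V H R I,
    ?_, ?_⟩
  · intro V H R I _ hA
    beta_reduce
    split_ifs with hc
    · obtain ⟨c1, c2, c3, c4⟩ := hc
      have h3 := h1 (mk5 V H R I) (by rw [c1, c2, c3, c4]; exact hA)
      rw [lab_eq_cls, c1, c2, c3, c4] at h3
      exact h3
    · obtain ⟨h3, h4⟩ := hK V H R I hA
      exact ⟨subset_rfl, hFam _ _ _ _ subset_union_right h4⟩
  · intro F hF
    have h3 := h2 (fun κ => F (cls κ .h) (cls κ .r) (cls κ .i)) (fun κ => hF _ _ _)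
    unfold PR5
    refine le_trans (le_of_eq ?_) (le_trans h3 ?_)
    · congr 1
      funext κ
      beta_reduce
      rw [mk5_cls, if_pos ⟨rfl, rfl, rfl, rfl⟩]
      by_cases hE : Ast (cls κ .v) (cls κ .h) (cls κ .r) (cls κ .i)
      · rw [if_pos hE, ind, if_pos hE, one_mul]
        congr 1
        have hl : ∀ l : L5, l ≠ .v → l ≠ .h → cls (flip .h (U κ) κ) l = cls κ l := by
          intro l hv hh
          ext e
          rw [mem_cls, mem_cls]
          by_cases he : e ∈ U κ
          · rw [hkey κ hE e he]
            simp only [flip, if_pos he]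
            exact ⟨fun h => absurd h.symm hh, fun h => absurd h.symm hv⟩
          · simp [flip, he]
        rw [hl .r (by decide) (by decide), hl .i (by decide) (by decide)]
        congr 1
        rw [← lab_eq_cls, ← lab_eq_cls, lab_flip]
      · rw [if_neg hE, ind, if_neg hE, zero_mul, zero_mul]
    · refine EX_mono (fun _ l => w5'_nonneg hp.le hh hr hs hsum l) fun κ => ?_
      beta_reduce
      split_ifs
      · exact le_rfl
      · exact hF _ _ _

end Vale.Agent.P331.H379
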