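import Vale.Agent.P331.H379.JStar
import Vale.Agent.P331.H489.Ex

/-!
# `J*` on independent labels

Labels `v` (known) and `h` (hole).  `Ev` is an event on which a set `K ω` of `v`-elements lies in
an up-set `F ω` which does not distinguish the labels `v` and `h`.  There is `U ω ⊆ K ω` such that
`H ∪ U` lies in `F ω`, and the map which relabels `U ω` by `h` is injective on the event.
-/

set_option autoImplicit false
set_option linter.unusedSectionVars false

namespace Vale.Agent.P331.H379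

open Finset Vale.Agent.P331.H489

section

variable {E L : Type*} [Fintype E] [DecidableEq E] [Fintype L] [DecidableEq L]

/-- the set of elements with label `l` -/
def lab (l : L) (ω : E → L) : Finset E := univ.filter fun e => ω e = l

@[simp] theorem mem_lab {l : L} {ω : E → L} {e : E} : e ∈ lab l ω ↔ ω e = l := by simp [lab]

/-- relabel the elements of `U` by `h` -/
def flip (h : L) (U : Finset E) (ω : E → L) : E → L := fun e => if e ∈ U then h else ω e

/-- two labellings which agree after identification of `v` and `h` -/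
def Sim (v h : L) (ω ω' : E → L) : Prop :=
  ∀ e, ω e = ω' e ∨ ((ω e = v ∨ ω e = h) ∧ (ω' e = v ∨ ω' e = h))

/-- the canonical labelling: `h` replaced by `v` -/
def can (v h : L) (ω : E → L) : E → L := fun e => if ω e = h then v else ω e

/-- the labelling with canonical form `β` and `v`-set `A` -/
def mk (v h : L) (β : E → L) (A : Finset E) : E → L :=
  fun e => if β e = v ∧ e ∉ A then h else β e

theorem sim_flip {v h : L} {U : Finset E} {ω : E → L} (hU : ∀ e ∈ U, ω e = v) :
    Sim v h ω (flip h U ω) := by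
  intro e
  by_cases he : e ∈ U
  · right
    simp [flip, he, hU e he]
  · left
    simp [flip, he]

theorem sim_symm {v h : L} {ω ω' : E → L} (H : Sim v h ω ω') : Sim v h ω' ω := by
  intro e
  rcases H e with h1 | h1
  · exact Or.inl h1.symm
  · exact Or.inr ⟨h1.2, h1.1⟩

theorem sim_can {v h : L} (ω : E → L) : Sim v h ω (can v h ω) := by
  intro e
  by_cases he : ω e = h
  · right
    simp [can, he]
  · left
    simp [can, he]

theorem sim_mk {v h : L} (β : E → L) (A : Finset E) : Sim v h β (mk v h β A) := by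
  intro e
  by_cases he : β e = v ∧ e ∉ A
  · right
    simp [mk, he]
  · left
    simp only [mk, if_neg he]

theorem mk_can {v h : L} (hvh : v ≠ h) (ω : E → L) : mk v h (can v h ω) (lab v ω) = ω := by
  funext e
  by_cases h1 : ω e = h
  · have h2 : can v h ω e = v := by simp [can, h1]
    have h3 : e ∉ lab v ω := by
      rw [mem_lab, h1]
      exact fun h => hvh h.symm
    simp [mk, h2, h3, h1]
  · have h2 : can v h ω e = ω e := by simp [can, h1]
    unfold mk
    rw [h2]
    by_cases h4 : ω e = v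
    · have h3 : e ∈ lab v ω := by rw [mem_lab, h4]
      simp [h3]
    · simp [h4]

theorem can_flip {v h : L} (hvh : v ≠ h) {U : Finset E} {ω : E → L} (hU : ∀ e ∈ U, ω e = v) :
    can v h (flip h U ω) = can v h ω := by
  funext e
  by_cases he : e ∈ U
  · simp [can, flip, he, hU e he, hvh]
  · simp [can, flip, he]

theorem lab_flip {h : L} {U : Finset E} {ω : E → L} :
    lab h (flip h U ω) = lab h ω ∪ U := by
  ext e
  by_cases he : e ∈ U
  · simp [flip, he]
  · simp [flip, he]

/-- `J*` on labels. -/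
theorem jstar_label (v h : L) (hvh : v ≠ h) (w : E → L → ℝ) (hw : ∀ e l, 0 ≤ w e l) (lam : ℝ)
    (hlam : 0 ≤ lam) (hwl : ∀ e, lam * w e v ≤ w e h)
    (F : (E → L) → Finset E → Prop) (hFm : ∀ ω A B, A ⊆ B → F ω A → F ω B)
    (hFi : ∀ ω ω', Sim v h ω ω' → ∀ A, F ω A → F ω' A)
    (Ev : (E → L) → Prop) (K : (E → L) → Finset E)
    (hK : ∀ ω, Ev ω → (∀ e ∈ K ω, ω e = v) ∧ F ω (K ω)) :
    ∃ U : (E → L) → Finset E,
      (∀ ω, Ev ω → U ω ⊆ K ω ∧ F ω (lab h ω ∪ U ω)) ∧
      (∀ ω, Ev ω → ∀ ω', Ev ω' → flip h (U ω) ω = flip h (U ω') ω' → ω = ω') ∧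
      open Classical in ∀ ψ : (E → L) → ℝ, (∀ ω, 0 ≤ ψ ω) →
        EX w (fun ω => if Ev ω then lam ^ (U ω).card * ψ (flip h (U ω) ω) else 0) ≤
          EX w (fun ω => if F ω (lab h ω) then ψ ω else 0) := by
  classical
  let Kc : (E → L) → Finset E → Finset E := fun β A =>
    if Ev (mk v h β A) then K (mk v h β A) else A
  have hj : ∀ β : E → L, ∃ φ : Finset E → Finset E,
      (∀ A ⊆ lab v β, F β A → φ A ⊆ Kc β A ∧ F β ((lab v β \ A) ∪ φ A)) ∧
      Set.InjOn (fun A => (lab v β \ A) ∪ φ A) {A | A ⊆ lab v β ∧ F β A} := by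
    intro β
    refine jstar (lab v β) (F β) (fun A B hAB _ hA => hFm β A B hAB hA) (Kc β) ?_
    intro A hA hFA
    simp only [Kc]
    split_ifs with hE
    · obtain ⟨h1, h2⟩ := hK _ hE
      refine ⟨?_, hFi _ _ (sim_symm (sim_mk β A)) _ h2⟩
      intro e he
      have h3 := h1 e he
      by_contra heA
      unfold mk at h3
      by_cases h4 : β e = v
      · rw [if_pos ⟨h4, heA⟩] at h3
        exact hvh h3.symm
      · rw [if_neg (fun h5 => h4 h5.1)] at h3
        exact h4 h3
    · exact ⟨subset_rfl, hFA⟩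
  choose φ hφ1 hφ2 using hj
  let U : (E → L) → Finset E := fun ω => φ (can v h ω) (lab v ω)
  have hlabsub : ∀ ω : E → L, lab v ω ⊆ lab v (can v h ω) := by
    intro ω e he
    rw [mem_lab] at he ⊢
    simp [can, he]
  have hdiff : ∀ ω : E → L, lab v (can v h ω) \ lab v ω = lab h ω := by
    intro ω
    ext e
    simp only [mem_sdiff, mem_lab, can]
    constructor
    · rintro ⟨h1, h2⟩
      by_contra h3
      rw [if_neg h3] at h1
      exact h2 h1
    · intro h1
      rw [if_pos h1]
      exact ⟨rfl, fun h2 => hvh (h2.symm.trans h1)⟩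
  have hFV : ∀ ω, Ev ω → F (can v h ω) (lab v ω) := by
    intro ω hE
    obtain ⟨h1, h2⟩ := hK ω hE
    exact hFi _ _ (sim_can ω) _ (hFm _ _ _ (fun e he => mem_lab.2 (h1 e he)) h2)
  have hU1 : ∀ ω, Ev ω → U ω ⊆ K ω ∧ F ω (lab h ω ∪ U ω) := by
    intro ω hE
    obtain ⟨h1, h2⟩ := hφ1 (can v h ω) (lab v ω) (hlabsub ω) (hFV ω hE)
    have h3 : Kc (can v h ω) (lab v ω) = K ω := by
      simp only [Kc]
      rw [mk_can hvh ω, if_pos hE]
    rw [h3] at h1
    rw [hdiff] at h2
    exact ⟨h1, hFi _ _ (sim_symm (sim_can ω)) _ h2⟩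
  have hUv : ∀ ω, Ev ω → ∀ e ∈ U ω, ω e = v := fun ω hE e he =>
    (hK ω hE).1 e ((hU1 ω hE).1 he)
  have hinj : ∀ ω, Ev ω → ∀ ω', Ev ω' → flip h (U ω) ω = flip h (U ω') ω' → ω = ω' := by
    intro ω hE ω' hE' heq
    have hc : can v h ω = can v h ω' := by
      rw [← can_flip hvh (hUv ω hE), ← can_flip hvh (hUv ω' hE'), heq]
    have hl : lab h ω ∪ U ω = lab h ω' ∪ U ω' := by
      rw [← lab_flip, ← lab_flip, heq]
    have hA : lab v ω = lab v ω' := by
      refine hφ2 (can v h ω) ⟨hlabsub ω, hFV ω hE⟩ ⟨?_, ?_⟩ ?_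
      · rw [hc]
        exact hlabsub ω'
      · rw [hc]
        exact hFV ω' hE'
      · have h4 : lab v (can v h ω) \ lab v ω' = lab h ω' := by rw [hc, hdiff]
        simp only [hdiff ω, h4]
        have h5 : U ω' = φ (can v h ω) (lab v ω') := by
          simp only [U]
          rw [hc]
        rw [← h5]
        exact hl
    rw [← mk_can hvh ω, ← mk_can hvh ω', hc, hA]
  refine ⟨U, hU1, hinj, ?_⟩
  intro ψ hψ
  unfold EX
  simp only [mul_ite, mul_zero]
  rw [← sum_filter, ← sum_filter]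
  have hwt : ∀ ω, Ev ω → lam ^ (U ω).card * ∏ e, w e (ω e) ≤
      ∏ e, w e (flip h (U ω) ω e) := by
    intro ω hE
    have h1 : lam ^ (U ω).card = ∏ e : E, (if e ∈ U ω then lam else 1) := by
      rw [prod_ite_mem, univ_inter, prod_const]
    rw [h1, ← prod_mul_distrib]
    refine prod_le_prod (fun e _ => ?_) fun e _ => ?_
    · refine mul_nonneg ?_ (hw _ _)
      split_ifs
      · exact hlam
      · exact zero_le_one
    · by_cases he : e ∈ U ω
      · rw [if_pos he, hUv ω hE e he]
        have : flip h (U ω) ω e = h := by simp [flip, he]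
        rw [this]
        exact hwl e
      · rw [if_neg he, one_mul]
        have : flip h (U ω) ω e = ω e := by simp [flip, he]
        rw [this]
  calc ∑ ω ∈ univ.filter Ev, (∏ e, w e (ω e)) * (lam ^ (U ω).card * ψ (flip h (U ω) ω))
      ≤ ∑ ω ∈ univ.filter Ev, (∏ e, w e (flip h (U ω) ω e)) * ψ (flip h (U ω) ω) := by
        refine sum_le_sum fun ω hω => ?_
        have hE := (mem_filter.1 hω).2
        calc (∏ e, w e (ω e)) * (lam ^ (U ω).card * ψ (flip h (U ω) ω))
            = (lam ^ (U ω).card * ∏ e, w e (ω e)) * ψ (flip h (U ω) ω) := by ring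
          _ ≤ _ := mul_le_mul_of_nonneg_right (hwt ω hE) (hψ _)
    _ = ∑ ω' ∈ (univ.filter Ev).image (fun ω => flip h (U ω) ω),
          (∏ e, w e (ω' e)) * ψ ω' := by
        rw [sum_image]
        intro ω hω ω' hω' heq
        exact hinj ω (mem_filter.1 hω).2 ω' (mem_filter.1 hω').2 heq
    _ ≤ ∑ ω' ∈ univ.filter (fun ω => F ω (lab h ω)), (∏ e, w e (ω' e)) * ψ ω' := by
        refine sum_le_sum_of_subset_of_nonneg ?_ fun ω _ _ =>
          mul_nonneg (prod_nonneg fun e _ => hw e _) (hψ ω)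
        intro ω' hω'
        obtain ⟨ω, hω, rfl⟩ := mem_image.1 hω'
        have hE := (mem_filter.1 hω).2
        rw [mem_filter]
        refine ⟨mem_univ _, ?_⟩
        rw [lab_flip]
        exact hFi _ _ (sim_flip (hUv ω hE)) _ (hU1 ω hE).2

/-- `J*` on labels, consequences: domination and size of `U`. -/
theorem jstar_label' (v h : L) (hvh : v ≠ h) (w : E → L → ℝ) (hw : ∀ e l, 0 ≤ w e l) (lam : ℝ)
    (hlam : 1 ≤ lam) (hwl : ∀ e, lam * w e v ≤ w e h)
    (F : (E → L) → Finset E → Prop) (hFm : ∀ ω A B, A ⊆ B → F ω A → F ω B)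
    (hFi : ∀ ω ω', Sim v h ω ω' → ∀ A, F ω A → F ω' A)
    (Ev : (E → L) → Prop) (K : (E → L) → Finset E)
    (hK : ∀ ω, Ev ω → (∀ e ∈ K ω, ω e = v) ∧ F ω (K ω)) :
    ∃ U : (E → L) → Finset E,
      (∀ ω, Ev ω → U ω ⊆ K ω ∧ F ω (lab h ω ∪ U ω)) ∧
      open Classical in (∀ ψ : (E → L) → ℝ, (∀ ω, 0 ≤ ψ ω) →
        EX w (fun ω => if Ev ω then ψ (flip h (U ω) ω) else 0) ≤
          EX w (fun ω => if F ω (lab h ω) then ψ ω else 0)) ∧
      (∀ k : ℕ, (∀ e, ∑ l, w e l = 1) →
        lam ^ k * EX w (fun ω => if Ev ω ∧ k ≤ (U ω).card then 1 else 0) ≤ 1) := by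
  classical
  obtain ⟨U, h1, -, h2⟩ := jstar_label v h hvh w hw lam (zero_le_one.trans hlam) hwl F hFm hFi
    Ev K hK
  refine ⟨U, h1, ?_, ?_⟩
  · intro ψ hψ
    refine le_trans (EX_mono hw fun ω => ?_) (h2 ψ hψ)
    split_ifs with hE
    · exact le_mul_of_one_le_left (hψ _) (one_le_pow₀ hlam)
    · exact le_rfl
  · intro k hw1
    have h3 := h2 (fun _ => 1) (fun _ => zero_le_one)
    rw [← EX_mul]
    calc EX w (fun ω => lam ^ k * if Ev ω ∧ k ≤ (U ω).card then 1 else 0)
        ≤ EX w (fun ω => if Ev ω then lam ^ (U ω).card * 1 else 0) := by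
          refine EX_mono hw fun ω => ?_
          by_cases hE : Ev ω
          · by_cases hk : k ≤ (U ω).card
            · rw [if_pos ⟨hE, hk⟩, if_pos hE, mul_one, mul_one]
              exact pow_le_pow_right₀ hlam hk
            · rw [if_neg (fun h => hk h.2), if_pos hE, mul_zero, mul_one]
              exact pow_nonneg (zero_le_one.trans hlam) _
          · rw [if_neg (fun h => hE h.1), if_neg hE, mul_zero]
      _ ≤ _ := h3
      _ ≤ EX w (fun _ => 1) := EX_mono hw fun ω => by split_ifs <;> norm_num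
      _ = 1 := EX_one w hw1 1

end

end Vale.Agent.P331.H379
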