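import Vale.Agent.P331.H316.Rows

/-!
# Row SPLIT: a pool inside the sample is an exclusive label
-/

set_option autoImplicit false
set_option linter.unusedSectionVars false
set_option linter.unusedVariables false

namespace Vale.Agent.P331.H379

open Finset Vale.Agent.P331.H489 Vale.Agent.P331.H316
open scoped Classical

/-- the five labels from four labels and a coin -/
def sp5 : L4 × Bool → L5
  | (.v, _) => .v
  | (.s, true) => .h
  | (.s, false) => .r
  | (.i, _) => .i
  | (.o, _) => .o

/-- **Row SPLIT.** -/
theorem rowSPLIT : RowSPLIT := by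
  intro E _ p s₁ s₂ g F
  have h1 : PR p s₁ s₂ (fun V R I => thin g R fun H => F V H (R \ H) I) =
      EX (fun _ : E => w4 p s₁ s₂) fun κ => EX (fun _ : E => tw g) fun c =>
        (fun τ : E → L5 => F (cls τ .v) (cls τ .h) (cls τ .r) (cls τ .i))
          (fun e => sp5 (κ e, c e)) := by
    unfold PR thin
    congr 1
    funext κ
    beta_reduce
    congr 1
    funext c
    have e1 : cls (fun e => sp5 (κ e, c e)) .v = cls κ .v := by
      ext e
      simp only [cls, mem_filter, mem_univ, true_and]
      rcases κ e with _ | _ | _ | _ <;> rcases c e with _ | _ <;> simp [sp5]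
    have e2 : cls (fun e => sp5 (κ e, c e)) .h = (cls κ .s).filter fun e => c e = true := by
      ext e
      simp only [cls, mem_filter, mem_univ, true_and]
      rcases κ e with _ | _ | _ | _ <;> rcases c e with _ | _ <;> simp [sp5]
    have e3 : cls (fun e => sp5 (κ e, c e)) .r =
        cls κ .s \ (cls κ .s).filter fun e => c e = true := by
      ext e
      simp only [cls, mem_sdiff, mem_filter, mem_univ, true_and]
      rcases κ e with _ | _ | _ | _ <;> rcases c e with _ | _ <;> simp [sp5]
    have e4 : cls (fun e => sp5 (κ e, c e)) .i = cls κ .i := by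
      ext e
      simp only [cls, mem_filter, mem_univ, true_and]
      rcases κ e with _ | _ | _ | _ <;> rcases c e with _ | _ <;> simp [sp5]
    simp only [e1, e2, e3, e4]
  rw [h1, ← EX_prod (fun _ : E => w4 p s₁ s₂) (fun _ : E => tw g)
    (fun κ c => (fun τ : E → L5 => F (cls τ .v) (cls τ .h) (cls τ .r) (cls τ .i))
          (fun e => sp5 (κ e, c e)))]
  have h2 := EX_push (E := E) sp5 (fun (_ : E) (x : L4 × Bool) => w4 p s₁ s₂ x.1 * tw g x.2)
    (fun τ : E → L5 => F (cls τ .v) (cls τ .h) (cls τ .r) (cls τ .i))
  refine Eq.trans ?_ (h2.trans ?_)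
  · rfl
  · unfold PR5
    congr 1
    funext e l
    rw [sum_filter, Fintype.sum_prod_type, sum_L4]
    simp only [Fintype.sum_bool]
    rcases l with _ | _ | _ | _ | _ <;> simp [sp5, w4, w5', tw] <;> ring

end Vale.Agent.P331.H379
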