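import Mathlib

/-!
# The `J*` injection

For an up-set `F` of subsets of a finite set `W` and a choice `Kc A ⊆ A`, `F (Kc A)`,
there is `φ A ⊆ Kc A` with `F ((W \ A) ∪ φ A)` such that `A ↦ (W \ A) ∪ φ A` is injective.
-/

namespace Vale.Agent.P331.H379

open Finset

variable {α : Type*} [DecidableEq α]

/-- The incidence function. -/
def g (W : Finset α) (Kc : Finset α → Finset α) (A B : Finset α) : ℚ :=
  if W \ A ⊆ B ∧ Disjoint B (A \ Kc A) then 1 else 0

/-- Alternating sum over the interval `[B, W]` of a function not depending on `e`. -/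
theorem alt_sum_zero (W B : Finset α) (f : Finset α → ℚ) (e : α) (heW : e ∈ W) (heB : e ∉ B)
    (hf : ∀ X : Finset α, e ∉ X → f (insert e X) = f X) :
    ∑ S ∈ (W \ B).powerset, (-1 : ℚ) ^ S.card * f (B ∪ S) = 0 := by
  have he : e ∈ W \ B := by simp [heW, heB]
  obtain ⟨D, hD, heD⟩ : ∃ D : Finset α, W \ B = insert e D ∧ e ∉ D :=
    ⟨(W \ B).erase e, (Finset.insert_erase he).symm, Finset.notMem_erase _ _⟩
  rw [hD, Finset.sum_powerset_insert heD]
  rw [← Finset.sum_add_distrib]
  apply Finset.sum_eq_zero
  intro S hS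
  have heS : e ∉ S := fun h => heD (Finset.mem_powerset.1 hS h)
  rw [Finset.card_insert_of_notMem heS, pow_succ, Finset.union_insert,
    hf (B ∪ S) (by simp [heB, heS])]
  ring

theorem g_insert (W : Finset α) (Kc : Finset α → Finset α) (A X : Finset α) (e : α)
    (he : e ∈ Kc A) (heA : e ∈ A) : g W Kc A (insert e X) = g W Kc A X := by
  have h1 : W \ A ⊆ insert e X ↔ W \ A ⊆ X := by
    constructor
    · intro h y hy
      rcases Finset.mem_insert.1 (h hy) with rfl | h'
      · exact absurd heA (Finset.mem_sdiff.1 hy).2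
      · exact h'
    · intro h
      exact h.trans (Finset.subset_insert _ _)
  have h2 : Disjoint (insert e X) (A \ Kc A) ↔ Disjoint X (A \ Kc A) := by
    rw [Finset.disjoint_insert_left]
    constructor
    · exact fun h => h.2
    · exact fun h => ⟨by simp [he], h⟩
  unfold g
  simp only [h1, h2]

/-- `J*`. -/
theorem jstar (W : Finset α) (F : Finset α → Prop)
    (hF : ∀ A B, A ⊆ B → B ⊆ W → F A → F B) (Kc : Finset α → Finset α)
    (hK : ∀ A ⊆ W, F A → Kc A ⊆ A ∧ F (Kc A)) :
    ∃ φ : Finset α → Finset α, (∀ A ⊆ W, F A → φ A ⊆ Kc A ∧ F ((W \ A) ∪ φ A)) ∧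
      Set.InjOn (fun A => (W \ A) ∪ φ A) {A | A ⊆ W ∧ F A} := by
  classical
  set I : Type _ := {A // A ∈ W.powerset.filter F} with hI
  have hmem : ∀ A : I, A.1 ⊆ W ∧ F A.1 := by
    intro A
    have := A.2
    rw [Finset.mem_filter, Finset.mem_powerset] at this
    exact this
  let M : Matrix I I ℚ := fun A B => g W Kc A.1 B.1
  have hdet : M.det ≠ 0 := by
    intro h0
    obtain ⟨c, hc0, hc⟩ := Matrix.exists_vecMul_eq_zero_iff.2 h0
    let h : Finset α → ℚ := fun B => ∑ A : I, c A * g W Kc A.1 B
    -- `h` vanishes on `F`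
    have hhF : ∀ B ⊆ W, F B → h B = 0 := by
      intro B hB hFB
      have hBI : B ∈ W.powerset.filter F := by
        rw [Finset.mem_filter, Finset.mem_powerset]; exact ⟨hB, hFB⟩
      have := congrFun hc ⟨B, hBI⟩
      simpa [Matrix.vecMul, dotProduct, M, h] using this
    -- `h` vanishes everywhere
    have hh : ∀ n : ℕ, ∀ B ⊆ W, (W \ B).card = n → h B = 0 := by
      intro n
      induction n using Nat.strong_induction_on with
      | _ n ih =>
        intro B hB hn
        by_cases hFB : F B
        · exact hhF B hB hFB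
        · have hsum : ∑ S ∈ (W \ B).powerset, (-1 : ℚ) ^ S.card * h (B ∪ S) = 0 := by
            have : ∀ S, (-1 : ℚ) ^ S.card * h (B ∪ S)
                = ∑ A : I, c A * ((-1 : ℚ) ^ S.card * g W Kc A.1 (B ∪ S)) := by
              intro S
              simp only [h]
              rw [Finset.mul_sum]
              apply Finset.sum_congr rfl
              intro A _
              ring
            rw [Finset.sum_congr rfl (fun S _ => this S), Finset.sum_comm]
            apply Finset.sum_eq_zero
            intro A _
            rw [← Finset.mul_sum]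
            have hA := hmem A
            have hKA := hK A.1 hA.1 hA.2
            have hnot : ¬ Kc A.1 ⊆ B := fun hsub => hFB (hF _ _ hsub hB hKA.2)
            obtain ⟨e, heK, heB⟩ := Finset.not_subset.1 hnot
            rw [alt_sum_zero W B (g W Kc A.1) e (hA.1 (hKA.1 heK)) heB
              (fun X _ => g_insert W Kc A.1 X e heK (hKA.1 heK)), mul_zero]
          rw [← Finset.sum_erase_add _ _ (Finset.empty_mem_powerset (W \ B))] at hsum
          have hrest : ∑ S ∈ (W \ B).powerset.erase ∅, (-1 : ℚ) ^ S.card * h (B ∪ S) = 0 := by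
            apply Finset.sum_eq_zero
            intro S hS
            obtain ⟨hne, hS'⟩ := Finset.mem_erase.1 hS
            have hSW : S ⊆ W \ B := Finset.mem_powerset.1 hS'
            have hBS : B ∪ S ⊆ W := Finset.union_subset hB (hSW.trans Finset.sdiff_subset)
            have hlt : (W \ (B ∪ S)).card < n := by
              rw [← hn]
              apply Finset.card_lt_card
              rw [Finset.ssubset_iff_of_subset
                (Finset.sdiff_subset_sdiff (le_refl _) Finset.subset_union_left)]
              obtain ⟨x, hx⟩ := Finset.nonempty_iff_ne_empty.2 hne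
              exact ⟨x, hSW hx, by simp [hx]⟩
            rw [ih _ hlt (B ∪ S) hBS rfl, mul_zero]
          rw [hrest] at hsum
          simpa using hsum
    -- `c = 0`
    apply hc0
    funext A
    have hcA : ∀ n : ℕ, ∀ A : I, (W \ A.1).card = n → c A = 0 := by
      intro n
      induction n using Nat.strong_induction_on with
      | _ n ih =>
        intro A hn
        have h1 := hh _ (W \ A.1) Finset.sdiff_subset rfl
        simp only [h] at h1
        rw [Finset.sum_eq_single A] at h1
        · have hg : g W Kc A.1 (W \ A.1) = 1 := by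
            unfold g
            rw [if_pos]
            refine ⟨le_refl _, ?_⟩
            rw [Finset.disjoint_left]
            intro x hx hx'
            exact (Finset.mem_sdiff.1 hx).2 (Finset.mem_sdiff.1 hx').1
          rw [hg, mul_one] at h1
          exact h1
        · intro A' _ hne
          by_cases hg : W \ A'.1 ⊆ W \ A.1 ∧ Disjoint (W \ A.1) (A'.1 \ Kc A'.1)
          · have hss : (W \ A'.1).card < n := by
              rw [← hn]
              apply Finset.card_lt_card
              refine Finset.ssubset_iff_subset_ne.2 ⟨hg.1, ?_⟩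
              intro heq
              apply hne
              apply Subtype.ext
              have h2 : W \ (W \ A'.1) = W \ (W \ A.1) := by rw [heq]
              rwa [Finset.sdiff_sdiff_eq_self (hmem A').1, Finset.sdiff_sdiff_eq_self (hmem A).1]
                at h2
            rw [ih _ hss A' rfl, zero_mul]
          · unfold g
            rw [if_neg hg, mul_zero]
        · intro hA
          exact absurd (Finset.mem_univ A) hA
    exact hcA _ A rfl
  -- a permutation with nonzero product
  rw [Matrix.det_apply] at hdet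
  obtain ⟨σ, _, hσ⟩ := Finset.exists_ne_zero_of_sum_ne_zero hdet
  have hprod : ∏ i : I, M (σ i) i ≠ 0 := by
    intro h
    apply hσ
    rw [h, smul_zero]
  have hent : ∀ i : I, M (σ i) i ≠ 0 := fun i =>
    (Finset.prod_ne_zero_iff.1 hprod) i (Finset.mem_univ i)
  -- `τ = σ⁻¹`
  have hrel : ∀ A : I, W \ A.1 ⊆ (σ.symm A).1 ∧ Disjoint (σ.symm A).1 (A.1 \ Kc A.1) := by
    intro A
    have := hent (σ.symm A)
    rw [Equiv.apply_symm_apply] at this
    by_contra hcon
    apply this
    show g W Kc A.1 (σ.symm A).1 = 0
    unfold g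
    rw [if_neg hcon]
  let φ : Finset α → Finset α := fun A =>
    if hA : A ∈ W.powerset.filter F then (σ.symm ⟨A, hA⟩).1 ∩ A else ∅
  have hval : ∀ A, ∀ hA : A ∈ W.powerset.filter F, (W \ A) ∪ φ A = (σ.symm ⟨A, hA⟩).1 := by
    intro A hA
    simp only [φ, dif_pos hA]
    have h1 := (hrel ⟨A, hA⟩).1
    have h2 := (hmem (σ.symm ⟨A, hA⟩)).1
    ext x
    simp only [Finset.mem_union, Finset.mem_sdiff, Finset.mem_inter]
    constructor
    · rintro (⟨hx, hxA⟩ | ⟨hx, _⟩)
      · exact h1 (Finset.mem_sdiff.2 ⟨hx, hxA⟩)
      · exact hx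
    · intro hx
      by_cases hxA : x ∈ A
      · exact Or.inr ⟨hx, hxA⟩
      · exact Or.inl ⟨h2 hx, hxA⟩
  have hmemI : ∀ A, A ⊆ W → F A → A ∈ W.powerset.filter F := by
    intro A h1 h2
    rw [Finset.mem_filter, Finset.mem_powerset]
    exact ⟨h1, h2⟩
  refine ⟨φ, ?_, ?_⟩
  · intro A hAW hFA
    have hA := hmemI A hAW hFA
    refine ⟨?_, ?_⟩
    · intro x hx
      simp only [φ, dif_pos hA, Finset.mem_inter] at hx
      by_contra hxK
      exact (Finset.disjoint_left.1 (hrel ⟨A, hA⟩).2) hx.1 (Finset.mem_sdiff.2 ⟨hx.2, hxK⟩)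
    · rw [hval A hA]
      exact (hmem _).2
  · rintro A ⟨hA1, hA2⟩ B ⟨hB1, hB2⟩ hAB
    have hA := hmemI A hA1 hA2
    have hB := hmemI B hB1 hB2
    simp only [hval A hA, hval B hB] at hAB
    have := σ.symm.injective (Subtype.ext hAB)
    exact congrArg Subtype.val this

end Vale.Agent.P331.H379
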