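import Vale.Agent.P331.H379.JLabel
import Vale.Agent.P331.H250.Ker

/-!
# `J*` for thinnings

`V` is a thinning of the ground set, `G` a thinning of the complement of `V`.  An up-set family
`F (univ \ (V ∪ G))` which does not see the division of `V ∪ G`, an event `Ev V G` and a choice
`K V G ⊆ V` in the family: there is `U V G ⊆ K V G` such that `G ∪ U` lies in the family, the pair
`(G ∪ U, univ \ (V ∪ G))` is dominated by the natural pair, and every element of `U` costs a
factor `lam`.
-/

set_option autoImplicit false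
set_option linter.unusedSectionVars false

namespace Vale.Agent.P331.H379

open Finset Vale.Agent.P331.H489 Vale.Agent.P331.H250

variable {E : Type*} [Fintype E] [DecidableEq E]

theorem bw2_nonneg {a b : E → ℝ} (ha : ∀ e, 0 ≤ a e) (hb : ∀ e, 0 ≤ b e)
    (hab : ∀ e, a e + b e ≤ 1) (S : Finset E) (e : E) (l : Option Bool) :
    0 ≤ bw2 a b S e l := by
  unfold bw2
  have := ha e
  have := hb e
  have := hab e
  split_ifs <;> linarith

theorem bw2_sum (a b : E → ℝ) (S : Finset E) (e : E) : ∑ l, bw2 a b S e l = 1 := by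
  rw [Fintype.sum_option, Fintype.sum_bool]
  by_cases h : e ∈ S
  · simp [bw2, h]
  · simp [bw2, h]

theorem lset_none (ω : E → Option Bool) :
    univ \ (lset (some true) ω ∪ lset (some false) ω) = lset none ω := by
  ext e
  simp only [mem_sdiff, mem_univ, true_and, mem_union, mem_lset]
  rcases ω e with _ | _ | _ <;> simp

theorem lset_disj (ω : E → Option Bool) :
    Disjoint (lset (some true) ω) (lset (some false) ω) := by
  rw [Finset.disjoint_left]
  intro e h1 h2
  rw [mem_lset] at h1 h2
  rw [h1] at h2
  simp at h2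

/-- the labelling with given sets -/
def mkl (V G : Finset E) : E → Option Bool :=
  fun e => if e ∈ V then some true else if e ∈ G then some false else none

theorem lset_true_mkl (V G : Finset E) : lset (some true) (mkl V G) = V := by
  ext e
  simp only [mem_lset, mkl]
  by_cases h : e ∈ V
  · simp [h]
  · by_cases h' : e ∈ G <;> simp [h, h']

theorem lset_false_mkl {V G : Finset E} (h : Disjoint V G) :
    lset (some false) (mkl V G) = G := by
  ext e
  simp only [mem_lset, mkl]
  by_cases h1 : e ∈ V
  · simp [h1, Finset.disjoint_left.1 h h1]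
  · by_cases h' : e ∈ G <;> simp [h1, h']

/-- **`J*` for two exclusive sets** (absolute rates `p` of `V`, `v` of `G`). -/
theorem jstar_T2 (p v : E → ℝ) (hp : ∀ e, 0 ≤ p e) (hv : ∀ e, 0 ≤ v e)
    (hpv : ∀ e, p e + v e ≤ 1) (lam : ℝ) (hlam : 1 ≤ lam) (hl : ∀ e, lam * p e ≤ v e)
    (F : Finset E → Finset E → Prop) (hF : ∀ R A B, A ⊆ B → F R A → F R B)
    (Ev : Finset E → Finset E → Prop) (K : Finset E → Finset E → Finset E)
    (hK : ∀ V G, Disjoint V G → Ev V G → K V G ⊆ V ∧ F (univ \ (V ∪ G)) (K V G)) :
    ∃ U : Finset E → Finset E → Finset E,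
      (∀ V G, Disjoint V G → Ev V G →
        U V G ⊆ K V G ∧ F (univ \ (V ∪ G)) (U V G ∪ G)) ∧
      open Classical in (∀ ψ : Finset E → Finset E → ℝ, (∀ X R, 0 ≤ ψ X R) →
        T2 p v univ (fun V G => if Ev V G then ψ (U V G ∪ G) (univ \ (V ∪ G)) else 0) ≤
          T2 p v univ (fun V X => if F (univ \ (V ∪ X)) X then ψ X (univ \ (V ∪ X)) else 0)) ∧
      (∀ k : ℕ, lam ^ k * T2 p v univ
        (fun V G => if Ev V G ∧ k ≤ (U V G).card then 1 else 0) ≤ 1) := by
  classical
  have hw : ∀ e l, 0 ≤ bw2 p v univ e l := bw2_nonneg hp hv hpv univ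
  have hlab : ∀ (l : Option Bool) (ω : E → Option Bool), lab l ω = lset l ω := fun _ _ => rfl
  obtain ⟨U, h1, h2, h3⟩ := jstar_label' (some true) (some false) (by simp) (bw2 p v univ) hw
    lam hlam (fun e => by simpa [bw2] using hl e)
    (fun ω A => F (lset none ω) A) (fun ω A B hAB hA => hF _ A B hAB hA)
    (by
      intro ω ω' hs A hA
      have : lset none ω = lset none ω' := by
        ext e
        rw [mem_lset, mem_lset]
        rcases hs e with h | ⟨h, h'⟩
        · rw [h]
        · constructor
          · intro h0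
            rw [h0] at h
            simp at h
          · intro h0
            rw [h0] at h'
            simp at h'
      rwa [this] at hA)
    (fun ω => Ev (lset (some true) ω) (lset (some false) ω))
    (fun ω => K (lset (some true) ω) (lset (some false) ω))
    (by
      intro ω hE
      obtain ⟨h1, h2⟩ := hK _ _ (lset_disj ω) hE
      rw [lset_none] at h2
      exact ⟨fun e he => mem_lset.1 (h1 he), h2⟩)
  have hkey : ∀ ω, Ev (lset (some true) ω) (lset (some false) ω) →
      ∀ e ∈ U ω, ω e = some true := by
    intro ω hE e he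
    exact mem_lset.1 ((hK _ _ (lset_disj ω) hE).1 ((h1 ω hE).1 he))
  have hmk : ∀ ω : E → Option Bool,
      mkl (lset (some true) ω) (lset (some false) ω) = ω := by
    intro ω
    funext e
    simp only [mkl, mem_lset]
    rcases ω e with _ | _ | _ <;> simp
  refine ⟨fun V G => U (mkl V G), ?_, ?_, ?_⟩
  · intro V G hd hE
    have hE' : Ev (lset (some true) (mkl V G)) (lset (some false) (mkl V G)) := by
      rwa [lset_true_mkl, lset_false_mkl hd]
    obtain ⟨h4, h5⟩ := h1 (mkl V G) hE'
    rw [lset_true_mkl, lset_false_mkl hd] at h4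
    refine ⟨h4, ?_⟩
    rw [hlab, ← lset_none, lset_true_mkl, lset_false_mkl hd, union_comm G] at h5
    exact h5
  · intro ψ hψ
    have h4 := h2 (fun ω => ψ (lset (some false) ω) (lset none ω)) (fun ω => hψ _ _)
    unfold T2
    refine le_trans (le_of_eq ?_) (le_trans h4 (le_of_eq ?_))
    · congr 1
      funext ω
      beta_reduce
      by_cases hE : Ev (lset (some true) ω) (lset (some false) ω)
      · rw [if_pos hE, if_pos hE, hmk]
        congr 1
        · rw [← hlab, ← hlab, lab_flip, union_comm]
        · rw [lset_none]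
          ext e
          rw [mem_lset, mem_lset]
          by_cases he : e ∈ U ω
          · simp [flip, he, hkey ω hE e he]
          · simp [flip, he]
      · rw [if_neg hE, if_neg hE]
    · congr 1
      funext ω
      beta_reduce
      rw [lset_none]
      rfl
  · intro k
    have h4 := h3 k (bw2_sum p v univ)
    unfold T2
    refine le_trans (le_of_eq ?_) h4
    congr 2
    funext ω
    simp only [hmk]

/-- **`J*` for nested thinnings**: `V` thinning of the ground set with rates `p`, `G` thinning
of the complement of `V` with keep rates `g`. -/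
theorem jstar_TH (p g : E → ℝ) (hp : ∀ e, 0 ≤ p e) (hp1 : ∀ e, p e ≤ 1) (hg : ∀ e, 0 ≤ g e)
    (hg1 : ∀ e, g e ≤ 1) (lam : ℝ) (hlam : 1 ≤ lam) (hl : ∀ e, lam * p e ≤ (1 - p e) * g e)
    (F : Finset E → Finset E → Prop) (hF : ∀ R A B, A ⊆ B → F R A → F R B)
    (Ev : Finset E → Finset E → Prop) (K : Finset E → Finset E → Finset E)
    (hK : ∀ V G, Disjoint V G → Ev V G → K V G ⊆ V ∧ F ((univ \ V) \ G) (K V G)) :
    ∃ U : Finset E → Finset E → Finset E,
      (∀ V G, Disjoint V G → Ev V G →
        U V G ⊆ K V G ∧ F ((univ \ V) \ G) (U V G ∪ G)) ∧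
      open Classical in (∀ ψ : Finset E → Finset E → ℝ, (∀ X R, 0 ≤ ψ X R) →
        TH p univ (fun V => TH g (univ \ V) (fun G =>
          if Ev V G then ψ (U V G ∪ G) ((univ \ V) \ G) else 0)) ≤
        TH p univ (fun V => TH g (univ \ V) (fun X =>
          if F ((univ \ V) \ X) X then ψ X ((univ \ V) \ X) else 0))) ∧
      (∀ k : ℕ, lam ^ k * TH p univ (fun V => TH g (univ \ V)
        (fun G => if Ev V G ∧ k ≤ (U V G).card then 1 else 0)) ≤ 1) := by
  classical
  have hs : ∀ V G : Finset E, (univ \ V) \ G = univ \ (V ∪ G) := by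
    intro V G
    ext e
    simp
  simp only [hs] at hK ⊢
  simp only [TH_TH]
  refine jstar_T2 p (fun e => (1 - p e) * g e) hp
    (fun e => mul_nonneg (by linarith [hp1 e]) (hg e)) (fun e => ?_) lam hlam hl F hF Ev K hK
  nlinarith [hp1 e, hg1 e, hp e]

end Vale.Agent.P331.H379
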