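import Vale.Agent.P331.H379.JTh
import Vale.Agent.P331.H888.JStep
import Vale.Agent.P331.F.Rows

/-!
# Row J of line B: the injection `J*`
-/

set_option autoImplicit false
set_option linter.unusedSectionVars false

namespace Vale.Agent.P331.H379

open Finset Vale.Agent.P331.H489 Vale.Agent.P331.H250
open scoped Classical

section

variable {E : Type*} [Fintype E] [DecidableEq E]

/-- rotation of the three labels -/
def rot3 : Option Bool → Option Bool
  | some true => none
  | some false => some true
  | none => some false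

/-- the complement of the first two sets as a set of its own -/
theorem T2_rot (p v r : E → ℝ) (h : ∀ e, r e = 1 - p e - v e) (F : Finset E → Finset E → ℝ) :
    T2 p v univ (fun V X => F X (univ \ (V ∪ X))) = T2 v r univ F := by
  have h1 : T2 p v univ (fun V X => F X (univ \ (V ∪ X))) = EX (bw2 p v univ) (fun ω =>
      (fun κ : E → Option Bool => F (lset (some true) κ) (lset (some false) κ)) (rot3 ∘ ω)) := by
    unfold T2
    refine EX_congr (fun _ _ => rfl) fun ω => ?_
    have e1 : lset (some false) ω = lset (some true) (rot3 ∘ ω) := by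
      ext e
      simp only [mem_lset, Function.comp]
      rcases ω e with _ | _ | _ <;> simp [rot3]
    have e2 : univ \ (lset (some true) ω ∪ lset (some false) ω) =
        lset (some false) (rot3 ∘ ω) := by
      rw [lset_none]
      ext e
      simp only [mem_lset, Function.comp]
      rcases ω e with _ | _ | _ <;> simp [rot3]
    show F (lset (some false) ω) (univ \ (lset (some true) ω ∪ lset (some false) ω)) =
      F (lset (some true) (rot3 ∘ ω)) (lset (some false) (rot3 ∘ ω))
    rw [e2, e1]
  rw [h1]
  refine Eq.trans (EX_push rot3 _ (fun κ : E → Option Bool => F (lset (some true) κ)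
      (lset (some false) κ))) ?_
  unfold T2
  refine EX_congr (fun e c => ?_) fun _ => rfl
  rw [sum_filter, Fintype.sum_option, Fintype.sum_bool]
  rcases c with _ | _ | _ <;> simp [bw2, rot3, h e]

theorem T2_eta (p v : E → ℝ) (F G : Finset E → Finset E → ℝ)
    (h : ∀ V X, F V X = G V X) : T2 p v univ F = T2 p v univ G := by
  have : F = G := by
    funext V X
    exact h V X
  rw [this]

/-- the natural side in the two parametrizations -/
theorem nat_side {p g : ℝ} (h1 : 1 - (1 - p) * g ≠ 0) (F : Finset E → Finset E → ℝ) :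
    TH (fun _ => p) univ (fun V => TH (fun _ => g) (univ \ V)
      (fun X => F X ((univ \ V) \ X))) =
    TH (fun _ => (1 - p) * g) univ (fun X =>
      TH (fun _ => (1 - p) * (1 - g) / (1 - (1 - p) * g)) (univ \ X) (fun R => F X R)) := by
  rw [TH_TH (fun _ => p) (fun _ => g) univ (fun V X => F X ((univ \ V) \ X)),
    TH_TH (fun _ => (1 - p) * g) (fun _ => (1 - p) * (1 - g) / (1 - (1 - p) * g)) univ F,
    ← T2_rot (fun _ => p) (fun _ => (1 - p) * g)
      (fun _ => (1 - (1 - p) * g) * ((1 - p) * (1 - g) / (1 - (1 - p) * g)))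
      (fun _ => by rw [mul_div_cancel₀ _ h1]; ring) F]
  refine T2_eta _ _ _ _ fun V X => ?_
  congr 1
  ext e
  simp

end

/-- **Row J.** -/
theorem rowJ : F.RowJ := by
  intro E _ Fm Hp hFm p g κ hp hp1 hg hg1 hpg
  have hv0 : 0 < (1 - p) * g := mul_pos (by linarith) hg
  have hv1 : (1 - p) * g < 1 := by nlinarith
  have hlam1 : 1 ≤ (1 - p) * g / p := by
    rw [le_div_iff₀ hp]
    linarith
  have h := H888.jstar_step (E := E) (p := p) (γ := g) (lam := (1 - p) * g / p) hp.le hg.le
    hg1.le hp1.le hlam1 (by rw [div_mul_cancel₀ _ hp.ne']) univ Fm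
    (fun R X Y hXY => hFm R X Y hXY) (fun R X => ¬ Hp R X) κ
    (fun V G => ∃ K ⊆ V, Fm ((univ \ V) \ G) K ∧
      ∀ U' ⊆ K, U'.card ≤ κ → ¬ Hp ((univ \ V) \ G) (U' ∪ G))
    (fun V _ G _ hE => by
      obtain ⟨K, h1, h2, h3⟩ := hE
      refine ⟨K, h1, h2, fun U hU hc _ => ?_⟩
      rw [union_comm]
      exact h3 U hU hc)
  have h2 := nat_side (E := E) (p := p) (g := g) (by linarith : (1 : ℝ) - (1 - p) * g ≠ 0)
    (fun X R => F.ind (Fm R X ∧ ¬ Hp R X))
  rw [one_div_div] at h
  refine h.trans (add_le_add le_rfl (le_of_eq (Eq.trans ?_ h2)))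
  congr 1
  funext V
  congr 1
  funext X
  unfold F.ind
  split_ifs <;> rfl

end Vale.Agent.P331.H379
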